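import Crest.Agent.R189.Full.Gen

/-!
# Row 189: `S` is simple
-/

set_option autoImplicit false

noncomputable section

namespace Crest.Agent.R189

open Equiv Filter Topology

variable {G X : Type*} [AddCommGroup G] [AddAction G X] {n : ℕ} {ι : Type*} [TopologicalSpace X]

variable (G) in
/-- `g` is locally a shift of sites -/
def IsLoc (g : Perm (X × Fin n)) : Prop :=
  ∀ (x : X) (i : Fin n), ∃ p : G × Fin n, ∀ᶠ y in 𝓝 x, g (y, i) = pt p y

variable [ContinuousConstVAdd G X]

theorem tendsto_vadd (u : G) (x : X) : Tendsto (fun y : X => u +ᵥ y) (𝓝 x) (𝓝 (u +ᵥ x)) :=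
  (continuous_const_vadd u).tendsto x

theorem isLoc_of_mem {g : Perm (X × Fin n)} (hg : g ∈ SG G X n) : IsLoc G g := by
  induction hg using Subgroup.closure_induction with
  | mem g hg =>
    rcases hg with ⟨f, hf, -, rfl⟩ | ⟨v, -, rfl⟩
    · intro x i
      refine ⟨(0, f x i), (hf.eventually_eq x).mono fun y hy => ?_⟩
      simp [pt_zero, hy]
    · intro x i
      exact ⟨(v i, i), Eventually.of_forall fun y => rfl⟩
  | one => exact fun x i => ⟨(0, i), Eventually.of_forall fun y => by simp [pt_zero]⟩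
  | mul g h _ _ hg hh =>
    intro x i
    obtain ⟨p, hp⟩ := hh x i
    obtain ⟨q, hq⟩ := hg (p.1 +ᵥ x) p.2
    refine ⟨(q.1 + p.1, q.2), (hp.and ((tendsto_vadd p.1 x).eventually hq)).mono fun y hy => ?_⟩
    rw [Perm.mul_apply, hy.1, ← pt_add, ← hy.2]
    rfl
  | inv g _ hg =>
    intro z j
    obtain ⟨⟨x, i⟩, e⟩ := g.surjective (z, j)
    obtain ⟨p, hp⟩ := hg x i
    have e1 := hp.self_of_nhds
    rw [e] at e1
    have ez : x = -p.1 +ᵥ z := by
      rw [show z = p.1 +ᵥ x from congrArg Prod.fst e1]; simp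
    have ej : j = p.2 := congrArg Prod.snd e1
    rw [ez] at hp
    refine ⟨(-p.1, i), ((tendsto_vadd (-p.1) z).eventually hp).mono fun y hy => ?_⟩
    rw [Perm.inv_eq_iff_eq]
    show (y, j) = g (-p.1 +ᵥ y, i)
    rw [hy, ej]
    simp [pt]

/-- near any base point an element of `S` moves a finite family of sites to a family of sites -/
theorem IsLoc.sites [Finite ι] {g : Perm (X × Fin n)} (hg : IsLoc G g) (s : ι → G × Fin n) (x : X) :
    ∃ s' : ι → G × Fin n, ∀ᶠ y in 𝓝 x, ∀ k, g (pt (s k) y) = pt (s' k) y := by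
  choose p hp using fun k => hg ((s k).1 +ᵥ x) (s k).2
  refine ⟨fun k => ((p k).1 + (s k).1, (p k).2), eventually_all.2 fun k => ?_⟩
  refine ((tendsto_vadd (s k).1 x).eventually (hp k)).mono fun y hy => ?_
  rw [← pt_add, ← hy]
  rfl

/-- different sites have disjoint pieces over small sets -/
theorem exists_disj [T2Space X] [IsCancelVAdd G X] [Finite ι] {s : ι → G × Fin n}
    (hs : Function.Injective s) (x : X) : ∃ W ∈ 𝓝 x, Disj W s := by
  have hc : ∀ p : G × Fin n, Continuous (pt p : X → X × Fin n) := fun p =>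
    (continuous_const_vadd p.1).prodMk continuous_const
  have h : ∀ᶠ q : X × X in 𝓝 (x, x), ∀ k l, k ≠ l → pt (s k) q.1 ≠ pt (s l) q.2 := by
    refine eventually_all.2 fun k => eventually_all.2 fun l => ?_
    by_cases hkl : k = l
    · exact Eventually.of_forall fun _ h => absurd hkl h
    have ho : IsOpen {q : X × X | pt (s k) q.1 ≠ pt (s l) q.2} :=
      isOpen_ne_fun ((hc _).comp continuous_fst) ((hc _).comp continuous_snd)
    have hx : (x, x) ∈ {q : X × X | pt (s k) q.1 ≠ pt (s l) q.2} := by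
      intro e
      refine hkl (hs (Prod.ext ?_ (congrArg (Prod.snd : X × Fin n → Fin n) e)))
      exact IsCancelVAdd.right_cancel _ _ x (congrArg Prod.fst e)
    exact Filter.mem_of_superset (ho.mem_nhds hx) fun q hq _ => hq
  rw [nhds_prod_eq] at h
  obtain ⟨W, hW, hsub⟩ := Filter.mem_prod_self_iff.1 h
  refine ⟨W, hW, disj_iff.2 fun k l y hy z hz e => ?_⟩
  by_contra hkl
  exact hsub (show (y, z) ∈ W ×ˢ W from ⟨hy, hz⟩) k l hkl e

/-- return times to an open set form an infinite set -/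
theorem infinite_returns [CompactSpace X] [AddAction.IsMinimal G X] [Infinite G] {W : Set X}
    (hW : IsOpen W) (hne : W.Nonempty) (y : X) : {u : G | u +ᵥ y ∈ W}.Infinite := by
  intro hfin
  obtain ⟨E, hE⟩ := isCompact_univ.elim_finite_subcover (fun u : G => (fun z : X => u +ᵥ z) ⁻¹' W)
    (fun u => hW.preimage (continuous_const_vadd u)) fun z _ => by
      obtain ⟨u, hu⟩ := hW.exists_vadd_mem G z hne
      exact Set.mem_iUnion.2 ⟨u, hu⟩
  refine Set.infinite_univ (α := G) ((E.finite_toSet.biUnion fun e _ =>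
    hfin.image fun u => u - e).subset fun g _ => ?_)
  obtain ⟨e, he, hg⟩ := Set.mem_iUnion₂.1 (hE (Set.mem_univ (g +ᵥ y)))
  refine Set.mem_iUnion₂.2 ⟨e, he, e + g, ?_, by simp⟩
  simpa [add_vadd] using hg

theorem le_of_normal [CompactSpace X] [T2Space X] [TotallyDisconnectedSpace X] [IsCancelVAdd G X]
    [AddAction.IsMinimal G X] [Infinite G] (hn : 5 ≤ n) {N : Subgroup (Perm (X × Fin n))}
    (hN : N ≤ SG G X n) (hconj : ∀ g ∈ SG G X n, ∀ h ∈ N, g * h * g⁻¹ ∈ N) (hne : N ≠ ⊥) :
    SG G X n ≤ N := by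
  classical
  obtain ⟨⟨g, hgN⟩, hg1⟩ := Subgroup.ne_bot_iff_exists_ne_one.1 hne
  have hg1' : g ≠ 1 := fun e => hg1 (Subtype.ext e)
  obtain ⟨⟨x, i⟩, hx⟩ : ∃ ω, g ω ≠ ω := by
    by_contra h
    push Not at h
    exact hg1' (Equiv.ext h)
  obtain ⟨p, hp⟩ := isLoc_of_mem (hN hgN) x i
  have hp0 : p ≠ (0, i) := by
    rintro rfl
    exact hx (hp.self_of_nhds.trans (pt_zero i x))
  obtain ⟨W₀, hW₀, hW₀o, hxW₀⟩ := eventually_nhds_iff.1 hp
  rw [SG_eq_AG hn, AG, Subgroup.closure_le]
  rintro _ ⟨V, s, hV, hs, rfl⟩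
  refine clopen_induction (P := fun U : Set X => sec U s (finRotate 3) ∈ N) hV
    (by simp [sec_empty]) (fun U U' _ _ hd hsub hU hU' => ?_) fun y hy => ?_
  · rw [sec_union (hs.mono hsub) hd]
    exact mul_mem hU hU'
  -- three sites inside the region moved by `g`
  have hinf := infinite_returns (G := G) hW₀o ⟨x, hxW₀⟩ y
  obtain ⟨u₀, hu₀⟩ := hinf.nonempty
  obtain ⟨u₁, hu₁, hu₁'⟩ := hinf.exists_notMem_finset {u₀, p.1 + u₀}
  obtain ⟨u₂, hu₂, hu₂'⟩ := hinf.exists_notMem_finset {u₀, p.1 + u₀, u₁}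
  simp only [Finset.mem_insert, Finset.mem_singleton, not_or] at hu₁' hu₂'
  let u : Fin 3 → G := ![u₀, u₁, u₂]
  have hu : ∀ k, u k +ᵥ y ∈ W₀ := fun k => by fin_cases k <;> assumption
  have huinj : Function.Injective u := by
    intro k l e
    fin_cases k <;> fin_cases l
    all_goals first
      | rfl
      | exact absurd e hu₁'.1 | exact absurd e.symm hu₁'.1
      | exact absurd e hu₂'.1 | exact absurd e.symm hu₂'.1
      | exact absurd e hu₂'.2.2 | exact absurd e.symm hu₂'.2.2
  let q : Fin 3 → G × Fin n := fun k => (u k, i)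
  let q' : Fin 3 → G × Fin n := fun k => (p.1 + u k, p.2)
  have hq : Function.Injective q := fun k l e => huinj (congrArg Prod.fst e)
  have hq' : Function.Injective q' := fun k l e =>
    huinj (add_left_cancel (congrArg Prod.fst e : p.1 + u k = p.1 + u l))
  have hqq' : ∀ k, q k ≠ q' 0 := by
    intro k e
    have e1 : u k = p.1 + u₀ := congrArg Prod.fst e
    have e2 : i = p.2 := congrArg Prod.snd e
    fin_cases k
    · refine hp0 (Prod.ext ?_ e2.symm)
      have : u₀ = p.1 + u₀ := e1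
      simpa using this.symm
    · exact hu₁'.2 e1
    · exact hu₂'.2.1 e1
  let F : Finset (G × Fin n) := Finset.univ.image s ∪ Finset.univ.image q ∪ Finset.univ.image q' ∪
    Finset.univ.image fun l : Fin n => ((0 : G), l)
  have hF : 5 ≤ Nat.card F := by
    rw [Nat.card_eq_fintype_card, Fintype.card_coe]
    refine le_trans ?_ (Finset.card_le_card (Finset.subset_union_right (s₂ :=
      Finset.univ.image fun l : Fin n => ((0 : G), l))))
    rw [Finset.card_image_of_injective _ fun a b e => congrArg Prod.snd e]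
    simpa using hn
  obtain ⟨W₁, hW₁, hd⟩ := exists_disj (s := (Subtype.val : F → G × Fin n)) Subtype.val_injective y
  have hW₂ : ∀ᶠ z in 𝓝 y, ∀ k, u k +ᵥ z ∈ W₀ :=
    eventually_all.2 fun k => (tendsto_vadd (u k) y).eventually (hW₀o.mem_nhds (hu k))
  obtain ⟨W₃, hW₃, hW₃o, hyW₃⟩ := mem_nhds_iff.1 (inter_mem hW₁ hW₂)
  obtain ⟨W, hW, hyW, hWW⟩ := compact_exists_isClopen_in_isOpen hW₃o hyW₃
  refine ⟨W, hW, hyW, fun U hU hUW _ => ?_⟩
  have hdU : Disj U (Subtype.val : F → G × Fin n) :=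
    hd.mono fun z hz => (hW₃ (hWW (hUW hz))).1
  let js : Fin 3 → F := fun k => ⟨s k, by simp [F]⟩
  let jq : Fin 3 → F := fun k => ⟨q k, by simp [F]⟩
  let jq' : Fin 3 → F := fun k => ⟨q' k, by simp [F]⟩
  have hjs : Function.Injective js := fun k l e =>
    hs.injective ⟨y, hy⟩ (congrArg Subtype.val e)
  have hjq : Function.Injective jq := fun k l e => hq (congrArg Subtype.val e)
  have hjq' : Function.Injective jq' := fun k l e => hq' (congrArg Subtype.val e)
  obtain ⟨τ, hτ, hτ1, hτ2⟩ := exists_isThreeCycle_of_inj hjs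
  obtain ⟨a, ha, ha1, ha2⟩ := exists_isThreeCycle_of_inj hjq
  obtain ⟨b, hb, hb1, hb2⟩ := exists_isThreeCycle_of_inj hjq'
  have hmem : ∀ σ ∈ alternatingGroup F, sec U (Subtype.val : F → G × Fin n) σ ∈ SG G X n :=
    fun σ hσ => SG_eq_AG (G := G) (X := X) hn ▸ sec_mem_AG hU hdU hσ
  -- the pull-back of `N` to the alternating group of `F`
  let N' : Subgroup (alternatingGroup F) :=
    N.comap ((sec U (Subtype.val : F → G × Fin n)).comp (alternatingGroup F).subtype)
  have hN' : N'.Normal := ⟨fun h hh σ => by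
    have := hconj _ (hmem σ.1 σ.2) _ hh
    simpa [N'] using this⟩
  have hgq : g * sec U q (finRotate 3) * g⁻¹ = sec U q' (finRotate 3) := by
    refine (conj_sec (hdU.comp hjq) (fun k z hz => ?_) _).2
    have := hW₀ _ ((hW₃ (hWW (hUW hz))).2 k)
    rw [pt_add] at this
    exact this
  have hab : (⟨b * a⁻¹, mul_mem hb.mem_alternatingGroup (inv_mem ha.mem_alternatingGroup)⟩ :
      alternatingGroup F) ∈ N' := by
    show sec U (Subtype.val : F → G × Fin n) (b * a⁻¹) ∈ N
    have h1 := mul_mem hgN (hconj _ (hmem a ha.mem_alternatingGroup) _ (inv_mem hgN))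
    rw [map_mul, map_inv, sec_restrict hdU hjq' hb1 hb2]
    rw [show (Subtype.val ∘ jq') = q' from rfl, ← hgq,
      show sec U q (finRotate 3) = sec U (Subtype.val : F → G × Fin n) a from
        (sec_restrict hdU hjq ha1 ha2).symm]
    simpa [mul_assoc] using h1
  haveI := alternatingGroup.isSimpleGroup hF
  rcases hN'.eq_bot_or_eq_top with h | h
  · rw [h, Subgroup.mem_bot] at hab
    have e : b = a := mul_inv_eq_one.1 (congrArg Subtype.val hab)
    have e1 := hb1 0
    rw [e, ha2 _ fun k e' => hqq' k (congrArg Subtype.val e')] at e1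
    exact absurd (hjq' e1) (by decide)
  · have : (⟨τ, hτ.mem_alternatingGroup⟩ : alternatingGroup F) ∈ N' := h ▸ Subgroup.mem_top _
    have h2 : sec U (Subtype.val : F → G × Fin n) τ ∈ N := this
    rwa [sec_restrict hdU hjs hτ1 hτ2] at h2

/-- the group `S` of a free minimal action on a profinite space is simple -/
theorem isSimpleGroup_SG [CompactSpace X] [T2Space X] [TotallyDisconnectedSpace X]
    [IsCancelVAdd G X] [AddAction.IsMinimal G X] [Nonempty X] [Infinite G] (hn : 5 ≤ n) :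
    IsSimpleGroup (SG G X n) := by
  haveI := infinite_SG (G := G) (X := X) (n := n) (by omega)
  refine ⟨fun H hH => ?_⟩
  by_cases h : H = ⊥
  · exact Or.inl h
  right
  have := le_of_normal (G := G) hn (N := H.map (SG G X n).subtype) (Subgroup.map_subtype_le H)
    (by
      rintro g hg _ ⟨h, hh, rfl⟩
      exact ⟨_, hH.conj_mem h hh ⟨g, hg⟩, rfl⟩)
    (by rwa [Ne, Subgroup.map_eq_bot_iff_of_injective _ (SG G X n).subtype_injective])
  rw [eq_top_iff]
  rintro ⟨g, hg⟩ -
  obtain ⟨h, hh, e⟩ := this hg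
  rwa [← show h = ⟨g, hg⟩ from Subtype.ext e]

end Crest.Agent.R189

end
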