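import Crest.Agent.R189.Full.Sec

/-!
# Row 189: `S` is generated by 3-cycles
-/

set_option autoImplicit false

noncomputable section

namespace Crest.Agent.R189

open Equiv

variable {G X : Type*} [AddCommGroup G] [AddAction G X] {n : ℕ} {ι : Type*} [TopologicalSpace X]

variable (G X n) in
/-- the group generated by the 3-cycles on three different levels -/
def AL : Subgroup (Perm (X × Fin n)) := Subgroup.closure (TriL G X n)

theorem TriL_subset : TriL G X n ⊆ Tri G X n := by
  rintro _ ⟨V, s, hV, hs, rfl⟩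
  exact ⟨V, s, hV, disj_of_levels V hs, rfl⟩

omit [TopologicalSpace X] in
/-- if all rotations of three pieces of a multisection lie in `H`, so do all even permutations -/
theorem sec_mem_of_rot [Fintype ι] [DecidableEq ι] {H : Subgroup (Perm (X × Fin n))} {V : Set X}
    {s : ι → G × Fin n} (h : Disj V s)
    (hH : ∀ j : Fin 3 → ι, Function.Injective j → sec V (s ∘ j) (finRotate 3) ∈ H)
    {σ : Perm ι} (hσ : σ ∈ alternatingGroup ι) : sec V s σ ∈ H := by
  have : alternatingGroup ι ≤ H.comap (sec V s) := by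
    rw [← Perm.closure_three_cycles_eq_alternating, Subgroup.closure_le]
    intro τ hτ
    obtain ⟨j, hj, h1, h2⟩ := exists_rot_of_isThreeCycle hτ
    show sec V s τ ∈ H
    rw [sec_restrict h hj h1 h2]
    exact hH j hj
  exact this hσ

theorem rot_mem_AG {V : Set X} (hV : IsClopen V) {s : Fin 3 → G × Fin n} (h : Disj V s) :
    sec V s (finRotate 3) ∈ AG G X n :=
  Subgroup.subset_closure (show _ ∈ Tri G X n from ⟨V, s, hV, h, rfl⟩)

theorem rot_mem_AL {V : Set X} (hV : IsClopen V) {s : Fin 3 → G × Fin n}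
    (h : Function.Injective fun k => (s k).2) : sec V s (finRotate 3) ∈ AL G X n :=
  Subgroup.subset_closure (show _ ∈ TriL G X n from ⟨V, s, hV, h, rfl⟩)

theorem sec_mem_AG [Fintype ι] [DecidableEq ι] {V : Set X} (hV : IsClopen V) {s : ι → G × Fin n}
    (h : Disj V s) {σ : Perm ι} (hσ : σ ∈ alternatingGroup ι) : sec V s σ ∈ AG G X n :=
  sec_mem_of_rot h (fun _ hj => rot_mem_AG hV (h.comp hj)) hσ

theorem sec_mem_AL [Fintype ι] [DecidableEq ι] {V : Set X} (hV : IsClopen V) {s : ι → G × Fin n}
    (h : Function.Injective fun k => (s k).2) {σ : Perm ι} (hσ : σ ∈ alternatingGroup ι) :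
    sec V s σ ∈ AL G X n :=
  sec_mem_of_rot (disj_of_levels V h)
    (fun _ hj => rot_mem_AL hV (h.comp hj)) hσ

theorem exists_two_free (hn : 5 ≤ n) (l : Fin 3 → Fin n) :
    ∃ a b : Fin n, a ≠ b ∧ (∀ k, l k ≠ a) ∧ ∀ k, l k ≠ b := by
  have h1 : (Finset.univ.image l).card ≤ 3 := Finset.card_image_le.trans (by simp)
  have h2 : 1 < (Finset.univ.image l)ᶜ.card := by
    rw [Finset.card_compl, Fintype.card_fin]; omega
  obtain ⟨a, ha, b, hb, hab⟩ := Finset.one_lt_card.1 h2
  simp only [Finset.mem_compl, Finset.mem_image, Finset.mem_univ, true_and, not_exists] at ha hb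
  exact ⟨a, b, hab, ha, hb⟩

/-- every generalised 3-cycle is a product of four 3-cycles on different levels -/
theorem AG_le_AL (hn : 5 ≤ n) : AG G X n ≤ AL G X n := by
  rw [AG, Subgroup.closure_le]
  rintro _ ⟨V, s, hV, hs, rfl⟩
  obtain ⟨a, b, hab, ha, hb⟩ := exists_two_free hn fun k => (s k).2
  let s' : Fin 5 → G × Fin n := ![s 0, s 1, s 2, (0, a), (0, b)]
  have hs' : Disj V s' := by
    refine disj_iff.2 fun k l y hy z hz e => ?_
    have e2 : (s' k).2 = (s' l).2 := congrArg (Prod.snd : X × Fin n → Fin n) e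
    have hd := fun k l => disj_iff.1 hs k l y hy z hz
    fin_cases k <;> fin_cases l
    all_goals first
      | rfl
      | exact absurd (hd _ _ e) (by decide)
      | exact absurd e2 (ha _) | exact absurd e2.symm (ha _)
      | exact absurd e2 (hb _) | exact absurd e2.symm (hb _)
      | exact absurd e2 hab | exact absurd e2.symm hab
  have key : ∀ k : Fin 3, sec V s' (swap (Fin.castLE (by norm_num) k) 4 *
      swap (Fin.castLE (by norm_num) k) 3) ∈ AL G X n := by
    intro k
    have hj : Function.Injective (![Fin.castLE (by norm_num) k, 3, 4] : Fin 3 → Fin 5) := by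
      revert k; decide
    rw [sec_restrict hs' hj (τ := finRotate 3) (by revert k; decide) (by revert k; decide)]
    refine rot_mem_AL hV ?_
    have e : (fun p => ((s' ∘ (![Fin.castLE (by norm_num) k, 3, 4] : Fin 3 → Fin 5)) p).2) =
        ![(s k).2, a, b] := by
      funext p
      fin_cases k <;> fin_cases p <;> rfl
    rw [e]
    intro p q hpq
    fin_cases p <;> fin_cases q
    all_goals first
      | rfl
      | exact absurd hpq (ha k) | exact absurd hpq.symm (ha k)
      | exact absurd hpq (hb k) | exact absurd hpq.symm (hb k)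
      | exact absurd hpq hab | exact absurd hpq.symm hab
  have e1 : sec V s (finRotate 3) = sec V s' (swap 0 2 * swap 0 1) := by
    rw [sec_restrict hs' (j := ![0, 1, 2]) (by decide) (τ := finRotate 3) (by decide) (by decide)]
    congr 2
    funext k
    fin_cases k <;> rfl
  have e2 : (swap 0 2 * swap 0 1 : Perm (Fin 5)) = (swap 0 4 * swap 0 3) * (swap 2 4 * swap 2 3)⁻¹ *
      (swap 1 4 * swap 1 3) * (swap 0 4 * swap 0 3)⁻¹ := by decide
  show sec V s (finRotate 3) ∈ AL G X n
  rw [e1, e2, map_mul, map_mul, map_mul, map_inv, map_inv]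
  exact mul_mem (mul_mem (mul_mem (key 0) (inv_mem (key 2))) (key 1)) (inv_mem (key 0))

theorem AL_le_AG : AL G X n ≤ AG G X n := Subgroup.closure_mono TriL_subset

theorem isLocallyConstant_mulIndicator {M : Type*} [One M] {V : Set X} (hV : IsClopen V) (σ : M) :
    IsLocallyConstant (V.mulIndicator fun _ => σ) := by
  refine (IsLocallyConstant.iff_exists_open _).2 fun x => ?_
  by_cases hx : x ∈ V
  · exact ⟨V, hV.isOpen, hx, fun y hy => by simp [hx, hy]⟩
  · exact ⟨Vᶜ, hV.compl.isOpen, hx, fun y hy => by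
      rw [Set.mulIndicator_of_notMem hx, Set.mulIndicator_of_notMem hy]⟩

theorem phi_indicator_mem_Mset {V : Set X} (hV : IsClopen V) {σ : Perm (Fin n)}
    (hσ : σ ∈ alternatingGroup (Fin n)) : phi (V.mulIndicator fun _ => σ) ∈ Mset X n := by
  refine ⟨_, isLocallyConstant_mulIndicator hV σ, fun x => ?_, rfl⟩
  by_cases hx : x ∈ V
  · simpa [hx] using hσ
  · simp [hx]

/-- a translation vector of sum zero with three prescribed values -/
theorem exists_sum_zero (hn : 5 ≤ n) {l : Fin 3 → Fin n} (hl : Function.Injective l)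
    (w : Fin 3 → G) : ∃ v : Fin n → G, ∑ i, v i = 0 ∧ ∀ k, v (l k) = w k := by
  obtain ⟨a, -, -, ha, -⟩ := exists_two_free hn l
  refine ⟨∑ k, (Pi.single (l k) (w k) - Pi.single a (w k)), ?_, fun k => ?_⟩
  · simp only [Finset.sum_apply, Pi.sub_apply]
    rw [Finset.sum_comm]
    simp [Finset.sum_sub_distrib]
  · simp only [Finset.sum_apply, Pi.sub_apply, Pi.single_eq_of_ne (ha k), sub_zero]
    rw [Finset.sum_eq_single k]
    · simp
    · intro k' _ hk
      exact Pi.single_eq_of_ne (fun e => hk (hl e).symm) _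
    · simp

theorem AL_le_SG (hn : 5 ≤ n) : AL G X n ≤ SG G X n := by
  rw [AL, Subgroup.closure_le]
  rintro _ ⟨V, s, hV, hs, rfl⟩
  obtain ⟨v, hv, hvs⟩ := exists_sum_zero hn hs fun k => (s k).1
  obtain ⟨τ, hτ, h1, h2⟩ := exists_isThreeCycle_of_inj hs
  have hd : Disj V fun i : Fin n => ((0 : G), i) := disj_of_levels V fun _ _ h => h
  have e := (lev_conj_sec (hd.comp hs) v (finRotate 3)).2
  rw [← sec_restrict hd hs h1 h2, ← phi_indicator G] at e
  have e2 : (fun k => (v (((fun i : Fin n => ((0 : G), i)) ∘ fun k => (s k).2) k).2 +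
      (((fun i : Fin n => ((0 : G), i)) ∘ fun k => (s k).2) k).1,
      (((fun i : Fin n => ((0 : G), i)) ∘ fun k => (s k).2) k).2)) = s := by
    funext k
    simp [hvs]
  rw [e2] at e
  show sec V s (finRotate 3) ∈ SG G X n
  rw [← e]
  have ht : lev X v ∈ SG G X n := Subgroup.subset_closure (Or.inr ⟨v, hv, rfl⟩)
  exact mul_mem (mul_mem ht (Subgroup.subset_closure
    (Or.inl (phi_indicator_mem_Mset hV hτ.mem_alternatingGroup)))) (inv_mem ht)

theorem Mset_subset_AL [CompactSpace X] : Mset X n ⊆ AL G X n := by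
  rintro _ ⟨f, hf, hf', rfl⟩
  have := clopen_induction (P := fun U : Set X => phi (U.mulIndicator f) ∈ AL G X n)
    isClopen_univ (by simp [phi_one, show (fun _ : X => (1 : Perm (Fin n))) = 1 from rfl])
    (fun U V _ _ hd _ hU hV => ?_) fun x _ => ?_
  · simpa using this
  · rw [show (U ∪ V).mulIndicator f = U.mulIndicator f * V.mulIndicator f from
      Set.mulIndicator_union_of_disjoint hd f, phi_mul]
    exact mul_mem hU hV
  · refine ⟨{y | f y = f x}, hf.isClopen_fiber _, rfl, fun U hU hUW _ => ?_⟩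
    rw [Set.mulIndicator_congr (g := fun _ => f x) fun y hy => hUW hy, phi_indicator G]
    exact sec_mem_AL hU (fun _ _ h => h) (hf' x)

theorem lev_conj_mem_AL (v : Fin n → G) {g : Perm (X × Fin n)} (hg : g ∈ AL G X n) :
    lev X v * g * (lev X v)⁻¹ ∈ AL G X n := by
  have : AL G X n ≤ (AL G X n).comap (MulAut.conj (lev X v)).toMonoidHom := by
    rw [AL, Subgroup.closure_le]
    rintro _ ⟨V, s, hV, hs, rfl⟩
    show lev X v * sec V s (finRotate 3) * (lev X v)⁻¹ ∈ AL G X n
    rw [(lev_conj_sec (disj_of_levels V hs) v _).2]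
    exact rot_mem_AL hV hs
  exact this hg

theorem lev_single_mem_AL [CompactSpace X] (hn : 5 ≤ n) (a b : Fin n) (w : G) :
    lev X (Pi.single a w - Pi.single b w : Fin n → G) ∈ AL G X n := by
  by_cases hab : a = b
  · subst hab
    rw [sub_self, lev_zero]
    exact one_mem _
  obtain ⟨c, -, -, hc, -⟩ := exists_two_free hn ![a, b, b]
  have hσ := Perm.isThreeCycle_swap_mul_swap_same (a := a) (b := c) (c := b) (hc 0) hab
    (hc 1).symm
  set σ := swap a c * swap a b with hσd
  have hσa : σ a = b := by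
    rw [hσd, Perm.mul_apply, swap_apply_left, swap_apply_of_ne_of_ne (Ne.symm hab) (hc 1)]
  have hm : phi (fun _ : X => σ) ∈ AL G X n :=
    Mset_subset_AL ⟨_, IsLocallyConstant.const σ, fun _ => hσ.mem_alternatingGroup, rfl⟩
  have h := mul_mem (lev_conj_mem_AL (Pi.single a w) hm) (inv_mem hm)
  convert inv_mem (inv_mem h) using 1
  rw [inv_inv, eq_mul_inv_iff_mul_eq, eq_mul_inv_iff_mul_eq]
  refine Equiv.ext fun ⟨x, i⟩ => ?_
  simp only [Perm.mul_apply, lev_apply, phi_apply, Pi.sub_apply, ← add_vadd]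
  have : (Pi.single b w : Fin n → G) (σ i) = (Pi.single a w : Fin n → G) i := by
    by_cases hi : i = a
    · subst hi; rw [hσa]; simp
    · rw [Pi.single_eq_of_ne hi, Pi.single_eq_of_ne]
      rw [← hσa]
      exact fun e => hi (σ.injective e)
  rw [this, sub_add_cancel]

theorem Tset_subset_AL [CompactSpace X] (hn : 5 ≤ n) : Tset G X n ⊆ AL G X n := by
  rintro _ ⟨v, hv, rfl⟩
  let b : Fin n := ⟨0, by omega⟩
  have key : ∀ F : Finset (Fin n),
      lev X (∑ a ∈ F, (Pi.single a (v a) - Pi.single b (v a) : Fin n → G)) ∈ AL G X n := by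
    intro F
    induction F using Finset.induction_on with
    | empty => simp [lev_zero]
    | insert a F ha ih =>
      rw [Finset.sum_insert ha, lev_add]
      exact mul_mem (lev_single_mem_AL hn a b _) ih
  have h := key Finset.univ
  have e : (∑ a, (Pi.single a (v a) - Pi.single b (v a) : Fin n → G)) = v := by
    rw [Finset.sum_sub_distrib, Finset.univ_sum_single]
    have : (∑ a, (Pi.single b (v a) : Fin n → G)) = 0 := by
      funext i
      rw [Finset.sum_apply]
      by_cases hi : i = b
      · subst hi; simpa using hv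
      · simp [Pi.single_eq_of_ne hi]
    rw [this, sub_zero]
  rwa [e] at h

theorem SG_eq_AL [CompactSpace X] (hn : 5 ≤ n) : SG G X n = AL G X n :=
  le_antisymm ((Subgroup.closure_le _).2
    (Set.union_subset Mset_subset_AL (Tset_subset_AL hn))) (AL_le_SG hn)

theorem SG_eq_AG [CompactSpace X] (hn : 5 ≤ n) : SG G X n = AG G X n :=
  (SG_eq_AL hn).trans (le_antisymm AL_le_AG (AG_le_AL hn))

theorem infinite_SG [IsCancelVAdd G X] [Nonempty X] [Infinite G] (hn : 2 ≤ n) :
    Infinite (SG G X n) := by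
  let a : Fin n := ⟨0, by omega⟩
  let b : Fin n := ⟨1, by omega⟩
  have hab : a ≠ b := by simp [a, b]
  have hm : ∀ w : G, lev X (Pi.single a w - Pi.single b w : Fin n → G) ∈ SG G X n := fun w =>
    Subgroup.subset_closure (Or.inr ⟨_, by simp [Finset.sum_sub_distrib], rfl⟩)
  refine Infinite.of_injective (fun w : G => (⟨_, hm w⟩ : SG G X n)) fun w w' e => ?_
  obtain ⟨x⟩ := ‹Nonempty X›
  have := congrArg (fun g : SG G X n => (g.1 (x, a)).1) e
  simp only [lev_apply, Pi.sub_apply, Pi.single_eq_same, Pi.single_eq_of_ne hab, sub_zero] at this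
  exact IsCancelVAdd.right_cancel _ _ _ this

end Crest.Agent.R189

end
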