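import Mathlib

/-!
# Row 189, the group `S = A(G × R_n)` of an action of an abelian group `G` on a space `X`

`S` acts on `X × Fin n`.  It is generated by `phi f` (`f : X → Alt_n` locally constant) and the level
translations `lev v` (`∑ v = 0`).  A *site* is a pair (translation, level); for a set `V ⊆ X` and a
family `s` of sites whose pieces over `V` are disjoint, `sec V s` is the action of the permutations
of the index type on the pieces.
-/

set_option autoImplicit false

noncomputable section

namespace Crest.Agent.R189

open Equiv

variable {G X : Type*} [AddCommGroup G] [AddAction G X] {n : ℕ}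

/-- the point at the site `p` over the base point `y` -/
def pt (p : G × Fin n) (y : X) : X × Fin n := (p.1 +ᵥ y, p.2)

/-- `(x, i) ↦ (x, f x i)` -/
def phi (f : X → Perm (Fin n)) : Perm (X × Fin n) := Equiv.prodCongrRight f

/-- `(x, i) ↦ (v i +ᵥ x, i)` -/
def lev (X : Type*) [AddAction G X] (v : Fin n → G) : Perm (X × Fin n) :=
  Equiv.prodCongrLeft fun i => AddAction.toPerm (v i)

@[simp] theorem phi_apply (f : X → Perm (Fin n)) (x : X) (i : Fin n) :
    phi f (x, i) = (x, f x i) := rfl

@[simp] theorem lev_apply (v : Fin n → G) (x : X) (i : Fin n) :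
    lev X v (x, i) = (v i +ᵥ x, i) := rfl

/-- the pieces over `V` at the sites `s` are pairwise disjoint -/
def Disj {ι : Type*} (V : Set X) (s : ι → G × Fin n) : Prop :=
  Function.Injective fun p : ι × V => pt (s p.1) (p.2 : X)

/-- `σ ↦ σ × 1` -/
def fstHom (ι β : Type*) : Perm ι →* Perm (ι × β) where
  toFun σ := Equiv.prodCongr σ (Equiv.refl β)
  map_one' := by ext x <;> simp
  map_mul' σ τ := by ext x <;> simp

open Classical in
/-- permutations of the index type permute the pieces (trivial if the pieces are not disjoint) -/
def sec {ι : Type*} (V : Set X) (s : ι → G × Fin n) : Perm ι →* Perm (X × Fin n) :=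
  if h : Disj V s then (Perm.viaEmbeddingHom ⟨_, h⟩).comp (fstHom ι V) else 1

variable [TopologicalSpace X]

variable (X n) in
/-- locally constant functions with values in the alternating group -/
def Mset : Set (Perm (X × Fin n)) :=
  {g | ∃ f : X → Perm (Fin n), IsLocallyConstant f ∧ (∀ x, f x ∈ alternatingGroup (Fin n)) ∧
    g = phi f}

variable (G X n) in
/-- level translations of total sum zero -/
def Tset : Set (Perm (X × Fin n)) := {g | ∃ v : Fin n → G, ∑ i, v i = 0 ∧ g = lev X v}

variable (G X n) in
/-- the group `S` -/
def SG : Subgroup (Perm (X × Fin n)) := Subgroup.closure (Mset X n ∪ Tset G X n)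

variable (G X n) in
/-- generalised 3-cycles: three disjoint pieces over a clopen set, permuted cyclically -/
def Tri : Set (Perm (X × Fin n)) :=
  {g | ∃ (V : Set X) (s : Fin 3 → G × Fin n), IsClopen V ∧ Disj V s ∧ g = sec V s (finRotate 3)}

variable (G X n) in
/-- 3-cycles whose three pieces lie on three different levels -/
def TriL : Set (Perm (X × Fin n)) :=
  {g | ∃ (V : Set X) (s : Fin 3 → G × Fin n), IsClopen V ∧ (Function.Injective fun k => (s k).2) ∧
    g = sec V s (finRotate 3)}

variable (G X n) in
/-- the alternating full group -/
def AG : Subgroup (Perm (X × Fin n)) := Subgroup.closure (Tri G X n)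

end Crest.Agent.R189

end
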