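import Crest.Agent.R189.Full.Defs

/-!
# Row 189: calculus of multisections
-/

set_option autoImplicit false

noncomputable section

namespace Crest.Agent.R189

open Equiv

variable {G X : Type*} [AddCommGroup G] [AddAction G X] {n : ℕ} {ι κ : Type*}

theorem pt_add (u : G) (p : G × Fin n) (y : X) : pt p (u +ᵥ y) = pt (p.1 + u, p.2) y := by
  simp [pt, add_vadd]

theorem pt_zero (i : Fin n) (y : X) : pt ((0 : G), i) y = (y, i) := by simp [pt]

theorem pt_inj (p : G × Fin n) : Function.Injective (pt p : X → X × Fin n) := by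
  intro y z h
  simpa [pt] using h

theorem lev_pt (v : Fin n → G) (p : G × Fin n) (y : X) :
    lev X v (pt p y) = pt (v p.2 + p.1, p.2) y := by
  simp [pt, add_vadd]

theorem disj_iff {V : Set X} {s : ι → G × Fin n} :
    Disj V s ↔ ∀ k l, ∀ y ∈ V, ∀ z ∈ V, pt (s k) y = pt (s l) z → k = l := by
  constructor
  · intro h k l y hy z hz e
    exact congrArg Prod.fst (@h (k, ⟨y, hy⟩) (l, ⟨z, hz⟩) e)
  · rintro h ⟨k, y, hy⟩ ⟨l, z, hz⟩ e
    obtain rfl := h k l y hy z hz e
    obtain rfl : y = z := pt_inj _ e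
    rfl

theorem Disj.mono {V W : Set X} {s : ι → G × Fin n} (h : Disj W s) (hVW : V ⊆ W) : Disj V s :=
  disj_iff.2 fun k l y hy z hz e => disj_iff.1 h k l y (hVW hy) z (hVW hz) e

theorem Disj.comp {V : Set X} {s : ι → G × Fin n} (h : Disj V s) {j : κ → ι}
    (hj : Function.Injective j) : Disj V (s ∘ j) :=
  disj_iff.2 fun k l y hy z hz e => hj (disj_iff.1 h (j k) (j l) y hy z hz e)

theorem disj_of_levels (V : Set X) {s : ι → G × Fin n} (h : Function.Injective fun k => (s k).2) :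
    Disj V s :=
  disj_iff.2 fun _ _ _ _ _ _ e => h (congrArg (Prod.snd : X × Fin n → Fin n) e)

theorem disj_empty (s : ι → G × Fin n) : Disj (∅ : Set X) s :=
  disj_iff.2 fun _ _ _ hy => hy.elim

theorem Disj.injective {V : Set X} {s : ι → G × Fin n} (h : Disj V s) (hV : V.Nonempty) :
    Function.Injective s := by
  obtain ⟨y, hy⟩ := hV
  intro k l e
  exact disj_iff.1 h k l y hy y hy (by rw [e])

theorem sec_apply {V : Set X} {s : ι → G × Fin n} (h : Disj V s) (σ : Perm ι) (k : ι) {y : X}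
    (hy : y ∈ V) : sec V s σ (pt (s k) y) = pt (s (σ k)) y := by
  unfold sec
  rw [dif_pos h]
  exact Perm.viaEmbedding_apply (fstHom ι V σ) ⟨_, h⟩ (k, ⟨y, hy⟩)

theorem sec_apply_not {V : Set X} {s : ι → G × Fin n} (σ : Perm ι) {ω : X × Fin n}
    (hω : ∀ k, ∀ y ∈ V, pt (s k) y ≠ ω) : sec V s σ ω = ω := by
  unfold sec
  split_ifs with h
  · refine Perm.viaEmbedding_apply_of_notMem (fstHom ι V σ) ⟨_, h⟩ ω ?_
    rintro ⟨⟨k, y, hy⟩, e⟩
    exact hω k y hy e
  · rfl

theorem eq_sec {V : Set X} {s : ι → G × Fin n} (h : Disj V s) {σ : Perm ι} {g : Perm (X × Fin n)}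
    (h1 : ∀ k, ∀ y ∈ V, g (pt (s k) y) = pt (s (σ k)) y)
    (h2 : ∀ ω, (∀ k, ∀ y ∈ V, pt (s k) y ≠ ω) → g ω = ω) : g = sec V s σ := by
  refine Equiv.ext fun ω => ?_
  by_cases hω : ∃ k, ∃ y ∈ V, pt (s k) y = ω
  · obtain ⟨k, y, hy, rfl⟩ := hω
    rw [h1 k y hy, sec_apply h σ k hy]
  · push Not at hω
    rw [h2 ω hω, sec_apply_not σ hω]

theorem sec_empty (s : ι → G × Fin n) (σ : Perm ι) : sec (∅ : Set X) s σ = 1 :=
  (eq_sec (disj_empty s) (fun _ _ hy => hy.elim) fun _ _ => rfl).symm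

theorem sec_union {V W : Set X} {s : ι → G × Fin n} (h : Disj (V ∪ W) s) (hd : Disjoint V W)
    (σ : Perm ι) : sec (V ∪ W) s σ = sec V s σ * sec W s σ := by
  have hV := h.mono Set.subset_union_left
  have hW := h.mono Set.subset_union_right
  have key : ∀ k l, ∀ y ∈ V, ∀ z ∈ W, pt (s k) y ≠ pt (s l) z := by
    intro k l y hy z hz e
    obtain rfl := disj_iff.1 h k l y (Or.inl hy) z (Or.inr hz) e
    obtain rfl : y = z := pt_inj _ e
    exact Set.disjoint_left.1 hd hy hz
  symm
  refine eq_sec h (fun k y hy => ?_) fun ω hω => ?_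
  · rw [Perm.mul_apply]
    rcases hy with hy | hy
    · rw [sec_apply_not (V := W) σ fun l z hz => (key k l y hy z hz).symm, sec_apply hV σ k hy]
    · rw [sec_apply hW σ k hy, sec_apply_not σ fun l z hz => key l _ z hz y hy]
  · rw [Perm.mul_apply, sec_apply_not (V := W) σ fun k y hy => hω k y (Or.inr hy),
      sec_apply_not σ fun k y hy => hω k y (Or.inl hy)]

/-- a permutation supported on the image of `j` acts through the restricted family of sites -/
theorem sec_restrict {V : Set X} {s : ι → G × Fin n} (h : Disj V s) {j : κ → ι}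
    (hj : Function.Injective j) {σ : Perm ι} {τ : Perm κ} (h1 : ∀ k, σ (j k) = j (τ k))
    (h2 : ∀ i, (∀ k, j k ≠ i) → σ i = i) : sec V s σ = sec V (s ∘ j) τ := by
  refine eq_sec (h.comp hj) (fun k y hy => ?_) fun ω hω => ?_
  · simp only [Function.comp]
    rw [sec_apply h σ _ hy, h1]
  · by_cases hω' : ∃ i, ∃ y ∈ V, pt (s i) y = ω
    · obtain ⟨i, y, hy, rfl⟩ := hω'
      rw [sec_apply h σ _ hy, h2]
      rintro k rfl
      exact hω k y hy rfl
    · push Not at hω'
      exact sec_apply_not σ hω'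

/-- conjugation rule: if `g` moves the pieces of `s` to the pieces of `s'` -/
theorem conj_sec {V : Set X} {s s' : ι → G × Fin n} (h : Disj V s) {g : Perm (X × Fin n)}
    (hg : ∀ k, ∀ y ∈ V, g (pt (s k) y) = pt (s' k) y) (σ : Perm ι) :
    Disj V s' ∧ g * sec V s σ * g⁻¹ = sec V s' σ := by
  have h' : Disj V s' := disj_iff.2 fun k l y hy z hz e =>
    disj_iff.1 h k l y hy z hz (g.injective (by rw [hg k y hy, hg l z hz, e]))
  refine ⟨h', eq_sec h' (fun k y hy => ?_) fun ω hω => ?_⟩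
  · rw [← hg k y hy]
    simp only [Perm.mul_apply, Perm.coe_inv, Equiv.symm_apply_apply]
    rw [sec_apply h σ k hy, hg _ y hy]
  · simp only [Perm.mul_apply]
    rw [sec_apply_not σ]
    · simp
    · intro k y hy e
      refine hω k y hy ?_
      rw [← hg k y hy, e]
      simp

theorem lev_conj_sec {V : Set X} {s : ι → G × Fin n} (h : Disj V s) (v : Fin n → G) (σ : Perm ι) :
    Disj V (fun k => (v (s k).2 + (s k).1, (s k).2)) ∧
      lev X v * sec V s σ * (lev X v)⁻¹ = sec V (fun k => (v (s k).2 + (s k).1, (s k).2)) σ :=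
  conj_sec h (fun k y _ => lev_pt v (s k) y) σ

/-- change of the base point -/
theorem sec_shift {V : Set X} {s : ι → G × Fin n} (u : G) (σ : Perm ι) :
    (Disj ((fun y => u +ᵥ y) '' V) s ↔ Disj V fun k => ((s k).1 + u, (s k).2)) ∧
      sec ((fun y => u +ᵥ y) '' V) s σ = sec V (fun k => ((s k).1 + u, (s k).2)) σ := by
  have hiff : Disj ((fun y => u +ᵥ y) '' V) s ↔ Disj V fun k => ((s k).1 + u, (s k).2) := by
    simp only [disj_iff, Set.forall_mem_image, pt_add]
  refine ⟨hiff, ?_⟩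
  by_cases h : Disj ((fun y => u +ᵥ y) '' V) s
  · refine eq_sec (hiff.1 h) (fun k y hy => ?_) fun ω hω => sec_apply_not σ ?_
    · rw [← pt_add, ← pt_add, sec_apply h σ k ⟨y, hy, rfl⟩]
    · rintro k _ ⟨y, hy, rfl⟩
      rw [pt_add]
      exact hω k y hy
  · have h' := fun h' => h (hiff.2 h')
    unfold sec
    rw [dif_neg h, dif_neg h']

theorem phi_mul (f g : X → Perm (Fin n)) : phi (f * g) = phi f * phi g := by
  refine Equiv.ext fun ⟨x, i⟩ => ?_
  simp

theorem phi_one : phi (1 : X → Perm (Fin n)) = 1 := by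
  refine Equiv.ext fun ⟨x, i⟩ => ?_
  simp

theorem phi_inv (f : X → Perm (Fin n)) : phi f⁻¹ = (phi f)⁻¹ := by
  rw [eq_inv_iff_mul_eq_one, ← phi_mul, inv_mul_cancel, phi_one]

theorem lev_add (v w : Fin n → G) : lev X (v + w) = lev X v * lev X w := by
  refine Equiv.ext fun ⟨x, i⟩ => ?_
  simp [add_vadd]

theorem lev_zero : lev X (0 : Fin n → G) = 1 := by
  refine Equiv.ext fun ⟨x, i⟩ => ?_
  simp

theorem lev_neg (v : Fin n → G) : lev X (-v) = (lev X v)⁻¹ := by
  rw [eq_inv_iff_mul_eq_one, ← lev_add, neg_add_cancel, lev_zero]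

/-- `φ_V(σ)` as a multisection -/
theorem phi_indicator (G : Type*) [AddCommGroup G] [AddAction G X] (V : Set X) (σ : Perm (Fin n)) :
    phi (V.mulIndicator fun _ => σ) = sec V (fun i => ((0 : G), i)) σ := by
  refine eq_sec (disj_of_levels V fun _ _ h => h) (fun k y hy => ?_) fun ⟨x, i⟩ hω => ?_
  · simp [pt_zero, Set.mulIndicator_of_mem hy]
  · have : x ∉ V := fun hx => hω i x hx (pt_zero i x)
    simp [Set.mulIndicator_of_notMem this]

/-- a 3-cycle of the index type acts as a rotation of three pieces -/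
theorem exists_rot_of_isThreeCycle [Fintype ι] [DecidableEq ι] {τ : Perm ι} (h : τ.IsThreeCycle) :
    ∃ j : Fin 3 → ι, Function.Injective j ∧ (∀ k, τ (j k) = j (finRotate 3 k)) ∧
      ∀ i, (∀ k, j k ≠ i) → τ i = i := by
  have hc := h.card_support
  obtain ⟨a, ha⟩ : τ.support.Nonempty := Finset.card_pos.1 (by omega)
  have ha' : τ a ≠ a := Perm.mem_support.1 ha
  have h3 : τ (τ (τ a)) = a := by
    have := pow_orderOf_eq_one τ
    rw [h.orderOf] at this
    simpa [pow_succ] using congrArg (fun g : Perm ι => g a) this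
  have h1 : τ (τ a) ≠ τ a := fun e => ha' (τ.injective e)
  have h2 : τ (τ a) ≠ a := fun e => ha' (by rw [e] at h3; exact h3)
  refine ⟨![a, τ a, τ (τ a)], ?_, ?_, ?_⟩
  · intro k l e
    fin_cases k <;> fin_cases l
    all_goals first
      | rfl
      | exact absurd e ha' | exact absurd e ha'.symm | exact absurd e h1 | exact absurd e h1.symm
      | exact absurd e h2 | exact absurd e h2.symm
  · intro k
    fin_cases k
    · rfl
    · rfl
    · exact h3
  · intro i hi
    by_contra hne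
    have hsub : ({i, a, τ a, τ (τ a)} : Finset ι) ⊆ τ.support := by
      intro x hx
      simp only [Finset.mem_insert, Finset.mem_singleton] at hx
      rcases hx with rfl | rfl | rfl | rfl
      · exact Perm.mem_support.2 hne
      · exact ha
      · exact Perm.apply_mem_support.2 ha
      · exact Perm.apply_mem_support.2 (Perm.apply_mem_support.2 ha)
    have e0 : i ≠ a := (hi 0).symm
    have e1 : i ≠ τ a := (hi 1).symm
    have e2 : i ≠ τ (τ a) := (hi 2).symm
    have := Finset.card_le_card hsub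
    rw [hc, Finset.card_insert_of_notMem (by simp [e0, e1, e2]),
      Finset.card_insert_of_notMem (by simp [ha'.symm, h2.symm]),
      Finset.card_pair h1.symm] at this
    omega

/-- the rotation of three different elements -/
theorem exists_isThreeCycle_of_inj [Fintype ι] [DecidableEq ι] {j : Fin 3 → ι}
    (hj : Function.Injective j) : ∃ τ : Perm ι, τ.IsThreeCycle ∧
      (∀ k, τ (j k) = j (finRotate 3 k)) ∧ ∀ i, (∀ k, j k ≠ i) → τ i = i := by
  have h01 : j 0 ≠ j 1 := fun e => by simpa using hj e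
  have h02 : j 0 ≠ j 2 := fun e => by simpa using hj e
  have h12 : j 1 ≠ j 2 := fun e => by simpa using hj e
  refine ⟨swap (j 0) (j 2) * swap (j 0) (j 1),
    Perm.isThreeCycle_swap_mul_swap_same h02 h01 h12.symm, fun k => ?_, fun i hi => ?_⟩
  · fin_cases k
    · show (swap (j 0) (j 2) * swap (j 0) (j 1)) (j 0) = j 1
      rw [Perm.mul_apply, swap_apply_left, swap_apply_of_ne_of_ne h01.symm h12]
    · show (swap (j 0) (j 2) * swap (j 0) (j 1)) (j 1) = j 2
      rw [Perm.mul_apply, swap_apply_right, swap_apply_left]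
    · show (swap (j 0) (j 2) * swap (j 0) (j 1)) (j 2) = j 0
      rw [Perm.mul_apply, swap_apply_of_ne_of_ne h02.symm h12.symm, swap_apply_right]
  · rw [Perm.mul_apply, swap_apply_of_ne_of_ne (hi 0).symm (hi 1).symm,
      swap_apply_of_ne_of_ne (hi 0).symm (hi 2).symm]

/-- induction on clopen subsets of a compact space -/
theorem clopen_induction [TopologicalSpace X] [CompactSpace X] {P : Set X → Prop} {K : Set X}
    (hK : IsClopen K) (h0 : P ∅)
    (hu : ∀ U V : Set X, IsClopen U → IsClopen V → Disjoint U V → U ∪ V ⊆ K → P U → P V → P (U ∪ V))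
    (hl : ∀ x ∈ K, ∃ W : Set X, IsClopen W ∧ x ∈ W ∧ ∀ U : Set X, IsClopen U → U ⊆ W → U ⊆ K → P U) :
    P K := by
  have key : ∃ W : Set X, IsClopen W ∧ K ⊆ W ∧
      ∀ U : Set X, IsClopen U → U ⊆ W → U ⊆ K → P U := by
    refine hK.isClosed.isCompact.induction_on
      (p := fun S => ∃ W : Set X, IsClopen W ∧ S ⊆ W ∧
        ∀ U : Set X, IsClopen U → U ⊆ W → U ⊆ K → P U) ?_ ?_ ?_ ?_
    · refine ⟨∅, isClopen_empty, le_rfl, fun U _ hU _ => ?_⟩
      rwa [Set.subset_empty_iff.1 hU]
    · rintro S T hST ⟨W, hW, hTW, h⟩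
      exact ⟨W, hW, hST.trans hTW, h⟩
    · rintro S T ⟨W, hW, hSW, h⟩ ⟨W', hW', hTW, h'⟩
      refine ⟨W ∪ W', hW.union hW', Set.union_subset_union hSW hTW, fun U hU hUW hUK => ?_⟩
      rw [← Set.inter_union_diff U W]
      refine hu _ _ (hU.inter hW) (hU.diff hW) Set.disjoint_sdiff_inter.symm
        (by rwa [Set.inter_union_diff]) (h _ (hU.inter hW) Set.inter_subset_right
          (Set.inter_subset_left.trans hUK)) (h' _ (hU.diff hW) ?_ (Set.diff_subset.trans hUK))
      intro x hx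
      exact (hUW hx.1).resolve_left hx.2
    · intro x hx
      obtain ⟨W, hW, hxW, h⟩ := hl x hx
      exact ⟨W, mem_nhdsWithin_of_mem_nhds (hW.isOpen.mem_nhds hxW), W, hW, le_rfl, h⟩
  obtain ⟨W, _, hKW, h⟩ := key
  exact h K hK hKW le_rfl

end Crest.Agent.R189

end
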